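import Vale.Agent.Lib.P199.Metabelian

/-!
# P199 (Kurosh's problem for division rings): generators of a metabelian group

Let `D` be a division ring that is algebraic over a central subfield `F` (for instance its
center), and let `T` be a finite set of nonzero elements (units) of `D`.  If the multiplicative
group generated by `T` is metabelian, i.e. any two elements of its commutator subgroup commute,
then the `F`-subalgebra of `D` generated by `T` is finite-dimensional over `F`.
-/

namespace Vale.Agent.Results.P199.MetabelianGenerators

open Vale.Agent.Lib.P199

theorem result {F D : Type*} [Field F] [DivisionRing D] [Algebra F D]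
    (halg : Algebra.IsAlgebraic F D) (T : Set Dˣ) (hT : T.Finite)
    (hmet : ∀ x ∈ ⁅Subgroup.closure T, Subgroup.closure T⁆,
      ∀ y ∈ ⁅Subgroup.closure T, Subgroup.closure T⁆, x * y = y * x) :
    FiniteDimensional F (Algebra.adjoin F ((fun u : Dˣ => (u : D)) '' T)) :=
  finiteDimensional_metabelian halg T hT hmet

end Vale.Agent.Results.P199.MetabelianGenerators
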