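import Vale.Agent.Lib.P199.Normalizing

/-!
# P199 (Kurosh's problem for division rings): normalizing chains of generators

Let `D` be a division ring that is algebraic over a central subfield `F` (for instance its
center).  Then:

* if `A` is a finite-dimensional `F`-subalgebra of `D` and `b ∈ D` normalizes `A`
  (`b * x * b⁻¹ ∈ A` for all `x ∈ A`), then the subalgebra generated by `A` and `b` is
  finite-dimensional over `F`;
* if `s 0, s 1, ..., s (n-1)` are elements of `D` such that every `s i` normalizes the subalgebra
  generated by the earlier ones, then they generate a finite-dimensional subalgebra;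
* every finite set of pairwise quasi-commuting elements (`a * b = c • (b * a)` with `c ∈ F`
  depending on `a, b`) generates a finite-dimensional subalgebra.
-/

namespace Vale.Agent.Results.P199.NormalizingChains

open Vale.Agent.Lib.P199

theorem result {F D : Type*} [Field F] [DivisionRing D] [Algebra F D]
    (halg : Algebra.IsAlgebraic F D) :
    (∀ (A : Subalgebra F D) (b : D), FiniteDimensional F A →
        (∀ x ∈ A, b * x * b⁻¹ ∈ A) →
        FiniteDimensional F (Algebra.adjoin F ((A : Set D) ∪ {b}))) ∧
    (∀ (s : ℕ → D) (n : ℕ),
        (∀ i < n, ∀ x ∈ Algebra.adjoin F (s '' Set.Iio i),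
            s i * x * (s i)⁻¹ ∈ Algebra.adjoin F (s '' Set.Iio i)) →
        FiniteDimensional F (Algebra.adjoin F (s '' Set.Iio n))) ∧
    (∀ S : Set D, S.Finite → (∀ a ∈ S, ∀ b ∈ S, ∃ c : F, a * b = c • (b * a)) →
        FiniteDimensional F (Algebra.adjoin F S)) :=
  ⟨fun A b hA hb => finiteDimensional_step halg A b hA hb,
   fun s n h => finiteDimensional_chain halg s n h,
   fun S hS h => finiteDimensional_quasiCommuting halg S hS h⟩

end Vale.Agent.Results.P199.NormalizingChains
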