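import Vale.Agent.Lib.P199.Solvable

/-!
# P199 (Kurosh's problem for division rings): generators of a solvable-by-finite group

Let `D` be a division ring that is algebraic over a central subfield `F` (for instance its
center), and let `T` be a finite set of nonzero elements (units) of `D`.  If the multiplicative
group generated by `T` has a solvable subgroup `H` of finite index (for instance if it is itself
solvable, of any derived length), then the `F`-subalgebra of `D` generated by `T` is
finite-dimensional over `F`.

The hypothesis `H.relIndex (Subgroup.closure T) ≠ 0` says that `H` has finite index in the group
generated by `T` (an infinite index is recorded as `0`).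
-/

namespace Vale.Agent.Results.P199.SolvableByFinite

open Vale.Agent.Lib.P199

theorem result {F D : Type*} [Field F] [DivisionRing D] [Algebra F D]
    (halg : Algebra.IsAlgebraic F D) (T : Set Dˣ) (hT : T.Finite)
    (H : Subgroup Dˣ) (hH : H ≤ Subgroup.closure T)
    (hsol : Group.IsSolvable H) (hidx : H.relIndex (Subgroup.closure T) ≠ 0) :
    FiniteDimensional F (Algebra.adjoin F ((fun u : Dˣ => (u : D)) '' T)) :=
  finiteDimensional_solvable_by_finite halg T hT H hH hsol hidx

end Vale.Agent.Results.P199.SolvableByFinite
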