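import Vale.Agent.Lib.P199.Relative

/-!
# P199 (Kurosh's problem for division rings): solvable-by-finite groups over a subalgebra

Let `D` be a division ring that is algebraic over a central subfield `F` (for instance its
center).  Let `A` be a finite-dimensional `F`-subalgebra of `D` and `T` a finite set of nonzero
elements (units) of `D` normalizing `A`.  If the multiplicative group generated by `T` has a
subgroup `H` of finite index whose `ℓ`-th derived subgroup is contained in `A` (so the group is
solvable-by-finite modulo the units of `A`), then the `F`-subalgebra generated by `A` and `T` is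
finite-dimensional over `F`.

For `A = F` this is the case of a solvable-by-finite group.  For a normal subgroup `N` of the
group generated by `T` with `F[N]` finite-dimensional one can take `A = F[N]`.

The hypothesis `H.relIndex (Subgroup.closure T) ≠ 0` says that `H` has finite index in the group
generated by `T` (an infinite index is recorded as `0`).
-/

namespace Vale.Agent.Results.P199.SolvableOverSubalgebra

open Vale.Agent.Lib.P199

theorem result {F D : Type*} [Field F] [DivisionRing D] [Algebra F D]
    (halg : Algebra.IsAlgebraic F D) (A : Subalgebra F D) [FiniteDimensional F A]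
    (T : Set Dˣ) (hT : T.Finite)
    (hnorm : ∀ t ∈ T, ∀ x ∈ A, (t : D) * x * ((t⁻¹ : Dˣ) : D) ∈ A)
    (H : Subgroup Dˣ) (hH : H ≤ Subgroup.closure T)
    (hidx : H.relIndex (Subgroup.closure T) ≠ 0) (ℓ : ℕ)
    (hder : ∀ u : H, u ∈ derivedSeries H ℓ → ((u : Dˣ) : D) ∈ A) :
    FiniteDimensional F (Algebra.adjoin F ((A : Set D) ∪ (fun u : Dˣ => (u : D)) '' T)) :=
  finiteDimensional_relative halg A T hT hnorm H hH hidx ℓ hder

end Vale.Agent.Results.P199.SolvableOverSubalgebra
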